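import Vale.Agent.P079.UC

namespace Vale.Agent.Results.P079.Superreflexive

/-- Every real Banach space that is linearly isomorphic to a uniformly convex space has the fixed
point property for nonexpansive maps in its own given norm. -/
theorem result {X Y : Type*} [NormedAddCommGroup X] [NormedSpace ℝ X] [CompleteSpace X]
    [NormedAddCommGroup Y] [NormedSpace ℝ Y] [UniformConvexSpace Y] (e : X ≃L[ℝ] Y)
    (C : Set X) (hne : C.Nonempty) (hcl : IsClosed C) (hb : Bornology.IsBounded C)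
    (hcv : Convex ℝ C) (T : C → C)
    (hT : ∀ a b : C, ‖(T a : X) - (T b : X)‖ ≤ ‖(a : X) - (b : X)‖) :
    ∃ x : C, T x = x := by
  classical
  obtain ⟨m, hm⟩ := Vale.Agent.P079.not_win_of_uc e
  let T' : X → X := fun x => if h : x ∈ C then (T ⟨x, h⟩ : X) else x
  have hT' : ∀ x : C, T' x = T x := fun x => by simp [T', x.2]
  obtain ⟨x, hx, hfix⟩ := Vale.Agent.P079.fixed_of_not_win hm
    (Vale.Agent.P079.wcpt_of_uc e hcl hcv hb) hne hcl hcv hb (T := T')
    (fun x hx => by rw [hT' ⟨x, hx⟩]; exact (T ⟨x, hx⟩).2)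
    (fun a ha b hb => by rw [hT' ⟨a, ha⟩, hT' ⟨b, hb⟩]; exact hT ⟨a, ha⟩ ⟨b, hb⟩)
  exact ⟨⟨x, hx⟩, Subtype.ext (by rw [← hT' ⟨x, hx⟩]; exact hfix)⟩

end Vale.Agent.Results.P079.Superreflexive
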